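import Vale.Agent.P126.Defs

namespace Vale.Agent.P126

open Finset

variable {n : ℕ}

theorem coveredBy_of_finset {A B : Set (EuclideanSpace ℝ (Fin n))} {β : Type}
    (s : Finset β) (c : β → EuclideanSpace ℝ (Fin n))
    (h : ∀ y ∈ A, ∃ b ∈ s, y - c b ∈ B) : CoveredBy A B s.card := by
  refine ⟨fun i => c (s.equivFin.symm i), fun y hy => ?_⟩
  obtain ⟨b, hb, hyb⟩ := h y hy
  exact ⟨s.equivFin ⟨b, hb⟩, _, hyb, by simp⟩

theorem coveredBy_of_code {A B : Set (EuclideanSpace ℝ (Fin n))} {β : Type}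
    (s : Finset β) (P : EuclideanSpace ℝ (Fin n) → β → Prop)
    (h : ∀ y ∈ A, ∃ b ∈ s, P y b)
    (h' : ∀ b, ∀ y ∈ A, ∀ y' ∈ A, P y b → P y' b → y - y' ∈ B) : CoveredBy A B s.card := by
  classical
  have : ∀ b, ∃ c, (∃ y ∈ A, P y b) → c ∈ A ∧ P c b := by
    intro b
    by_cases hb : ∃ y ∈ A, P y b
    · obtain ⟨y, hy⟩ := hb
      exact ⟨y, fun _ => hy⟩
    · exact ⟨0, fun h => absurd h hb⟩
  choose c hc using this
  refine coveredBy_of_finset s c fun y hy => ?_
  obtain ⟨b, hb, hP⟩ := h y hy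
  obtain ⟨h1, h2⟩ := hc b ⟨y, hy, hP⟩
  exact ⟨b, hb, h' b y hy _ h1 hP h2⟩

theorem exists_coveredBy {A B : Set (EuclideanSpace ℝ (Fin n))} (hA : IsCompact A)
    (hB : B ∈ nhds (0 : EuclideanSpace ℝ (Fin n))) : ∃ m, CoveredBy A B m := by
  obtain ⟨t, -, ht⟩ := hA.elim_nhds_subcover (fun x => {y | y - x ∈ B}) fun x _ => by
    have hc : Continuous fun y : EuclideanSpace ℝ (Fin n) => y - x := by fun_prop
    have := hc.continuousAt (x := x)
    rw [ContinuousAt, sub_self] at this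
    exact this hB
  refine ⟨t.card, coveredBy_of_finset t id fun y hy => ?_⟩
  have := ht hy
  simp only [Set.mem_iUnion] at this
  obtain ⟨x, hx, hyx⟩ := this
  exact ⟨x, hx, hyx⟩

theorem cube_mem_nhds : cube n ∈ nhds (0 : EuclideanSpace ℝ (Fin n)) := by
  refine Filter.mem_of_superset (Metric.closedBall_mem_nhds 0 one_pos) fun y hy i => ?_
  rw [mem_closedBall_zero_iff] at hy
  exact (PiLp.norm_apply_le y i).trans hy

theorem isSymmBody_cube : IsSymmBody (cube n) := by
  refine ⟨?_, ?_, ⟨0, mem_interior_iff_mem_nhds.2 cube_mem_nhds⟩, fun x => by simp [cube]⟩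
  · refine Metric.isCompact_of_isClosed_isBounded ?_ ?_
    · have : cube n = ⋂ i, {y : EuclideanSpace ℝ (Fin n) | |y i| ≤ 1} := by
        ext y; simp [cube]
      rw [this]
      exact isClosed_iInter fun i => isClosed_le (by fun_prop) continuous_const
    · refine (Metric.isBounded_closedBall (x := 0) (r := Real.sqrt n)).subset fun y hy => ?_
      rw [mem_closedBall_zero_iff, EuclideanSpace.norm_eq]
      refine Real.sqrt_le_sqrt ?_
      calc ∑ i, ‖y i‖ ^ 2 ≤ ∑ _i : Fin n, (1 : ℝ) := Finset.sum_le_sum fun i _ =>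
            pow_le_one₀ (norm_nonneg _) (hy i)
        _ = n := by simp
  · intro x hx y hy a b ha hb hab i
    have h1 := hx i
    have h2 := hy i
    simp only [PiLp.add_apply, PiLp.smul_apply, smul_eq_mul]
    rw [abs_le] at *
    constructor <;> nlinarith [h1.1, h1.2, h2.1, h2.2]

theorem sum_abs_le_of_mem_polar {μ : EuclideanSpace ℝ (Fin n)} (h : μ ∈ polarBody (cube n)) :
    ∑ i, |μ i| ≤ 1 := by
  have := h (WithLp.toLp 2 fun i => if 0 ≤ μ i then (1 : ℝ) else -1) fun i => by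
    simp only
    split_ifs <;> simp
  refine le_of_eq_of_le ?_ this
  simp only [PiLp.inner_apply, RCLike.inner_apply, conj_trivial]
  refine Finset.sum_congr rfl fun i _ => ?_
  split_ifs with hi
  · simp [abs_of_nonneg hi]
  · simp [abs_of_neg (not_le.1 hi)]

theorem norm_le_sum_abs (μ : EuclideanSpace ℝ (Fin n)) : ‖μ‖ ≤ ∑ i, |μ i| := by
  rw [EuclideanSpace.norm_eq, Real.sqrt_le_left (Finset.sum_nonneg fun i _ => abs_nonneg _)]
  simpa using Finset.sum_sq_le_sq_sum_of_nonneg (s := univ) (f := fun i => |μ i|)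
    fun i _ => abs_nonneg _

/-- The body spanned by a finite family and a small ball. -/
def body {F : Type} (f : F → EuclideanSpace ℝ (Fin n)) (κ : ℝ) :
    Set (EuclideanSpace ℝ (Fin n)) :=
  {x | ∃ y ∈ convexHull ℝ (Set.range f ∪ Set.range fun u => -f u), ‖x - y‖ ≤ κ}

theorem mem_body {F : Type} (f : F → EuclideanSpace ℝ (Fin n)) {κ : ℝ} (hκ : 0 < κ) (u : F) :
    f u ∈ body f κ :=
  ⟨f u, subset_convexHull _ _ (Or.inl ⟨u, rfl⟩), by simpa using hκ.le⟩

open Pointwise in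
theorem isSymmBody_body {F : Type} [Fintype F] [Nonempty F] (f : F → EuclideanSpace ℝ (Fin n))
    {κ : ℝ} (hκ : 0 < κ) : IsSymmBody (body f κ) := by
  set G := Set.range f ∪ Set.range fun u => -f u with hG
  have hb : body f κ = convexHull ℝ G + Metric.closedBall 0 κ := by
    ext x
    simp only [body, Set.mem_setOf_eq, Set.mem_add, mem_closedBall_zero_iff]
    constructor
    · rintro ⟨y, hy, hxy⟩; exact ⟨y, hy, x - y, hxy, by abel⟩
    · rintro ⟨y, hy, z, hz, rfl⟩; exact ⟨y, hy, by simpa using hz⟩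
  have hfin : G.Finite := (Set.finite_range _).union (Set.finite_range _)
  have hneg : ∀ y ∈ convexHull ℝ G, -y ∈ convexHull ℝ G := by
    intro y hy
    have hGG : -G = G := by
      ext z
      simp only [hG, Set.mem_neg, Set.mem_union, Set.mem_range]
      constructor
      · rintro (⟨u, hu⟩ | ⟨u, hu⟩)
        · exact Or.inr ⟨u, by rw [hu]; simp⟩
        · exact Or.inl ⟨u, neg_injective hu⟩
      · rintro (⟨u, hu⟩ | ⟨u, hu⟩)
        · exact Or.inr ⟨u, by rw [hu]⟩
        · exact Or.inl ⟨u, by rw [← hu]; simp⟩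
    rw [← hGG, convexHull_neg]
    simpa using hy
  have hsym : ∀ x, x ∈ body f κ → -x ∈ body f κ := by
    rintro x ⟨y, hy, hxy⟩
    refine ⟨-y, hneg y hy, ?_⟩
    have : -x - -y = -(x - y) := by abel
    rw [this, norm_neg]
    exact hxy
  refine ⟨?_, ?_, ?_, fun x => ⟨hsym x, fun h => by simpa using hsym _ h⟩⟩
  · rw [hb]; exact (hfin.isCompact_convexHull ℝ).add (isCompact_closedBall _ _)
  · rw [hb]; exact (convex_convexHull _ _).add (convex_closedBall _ _)
  · obtain ⟨u⟩ := ‹Nonempty F›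
    refine ⟨f u, mem_interior_iff_mem_nhds.2 ?_⟩
    refine Filter.mem_of_superset (Metric.closedBall_mem_nhds (f u) hκ) fun x hx => ?_
    exact ⟨f u, subset_convexHull _ _ (Or.inl ⟨u, rfl⟩), by simpa [dist_eq_norm] using hx⟩

theorem mem_dilate_polar {F : Type} (f : F → EuclideanSpace ℝ (Fin n)) {κ a α : ℝ} (ha : 0 < a)
    (hκ : 0 < κ) (z : EuclideanSpace ℝ (Fin n)) (h1 : ∀ u, |inner ℝ (f u) z| ≤ α)
    (h2 : α + κ * ‖z‖ ≤ a⁻¹) : z ∈ dilate a⁻¹ (polarBody (body f κ)) := by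
  refine ⟨a • z, ?_, by rw [smul_smul, inv_mul_cancel₀ ha.ne', one_smul]⟩
  rintro x ⟨y, hy, hxy⟩
  have hyz : inner ℝ y z ≤ α := by
    have hconv : Convex ℝ {y : EuclideanSpace ℝ (Fin n) | inner ℝ y z ≤ α} := by
      intro p hp q hq s t hs ht hst
      simp only [Set.mem_setOf_eq, inner_add_left, real_inner_smul_left] at *
      calc s * inner ℝ p z + t * inner ℝ q z ≤ s * α + t * α := by gcongr
        _ = α := by rw [← add_mul, hst, one_mul]
    refine convexHull_min ?_ hconv hy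
    rintro _ (⟨u, rfl⟩ | ⟨u, rfl⟩)
    · exact (abs_le.1 (h1 u)).2
    · simp only [Set.mem_setOf_eq, inner_neg_left]
      linarith [(abs_le.1 (h1 u)).1]
  have hxz : inner ℝ (x - y) z ≤ κ * ‖z‖ :=
    (real_inner_le_norm _ _).trans (mul_le_mul_of_nonneg_right hxy (norm_nonneg _))
  rw [inner_sub_left] at hxz
  rw [real_inner_smul_right]
  have : inner ℝ x z ≤ a⁻¹ := by linarith
  calc a * inner ℝ x z ≤ a * a⁻¹ := by gcongr
    _ = 1 := mul_inv_cancel₀ ha.ne'

end Vale.Agent.P126
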