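import Mathlib

/-!
Definitions for the duality conjecture for metric entropy.
-/

namespace Vale.Agent.P126

/-- An origin-symmetric convex body in `ℝ^n`. -/
def IsSymmBody {n : ℕ} (K : Set (EuclideanSpace ℝ (Fin n))) : Prop :=
  IsCompact K ∧ Convex ℝ K ∧ (interior K).Nonempty ∧ ∀ x, x ∈ K ↔ -x ∈ K

/-- The polar body. -/
def polarBody {n : ℕ} (K : Set (EuclideanSpace ℝ (Fin n))) : Set (EuclideanSpace ℝ (Fin n)) :=
  {y | ∀ x ∈ K, inner ℝ x y ≤ 1}

/-- The dilate `tK`. -/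
def dilate {n : ℕ} (t : ℝ) (K : Set (EuclideanSpace ℝ (Fin n))) :
    Set (EuclideanSpace ℝ (Fin n)) :=
  {y | ∃ x ∈ K, y = t • x}

/-- `A` is covered by `m` translates of `B`. -/
def CoveredBy {n : ℕ} (A B : Set (EuclideanSpace ℝ (Fin n))) (m : ℕ) : Prop :=
  ∃ c : Fin m → EuclideanSpace ℝ (Fin n), ∀ y ∈ A, ∃ i, ∃ z ∈ B, y = c i + z

/-- The covering number: the least number of translates of `B` covering `A`. -/
noncomputable def coveringNumber {n : ℕ} (A B : Set (EuclideanSpace ℝ (Fin n))) : ℕ :=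
  sInf {m | CoveredBy A B m}

/-- The cube `[-1,1]^n`. -/
def cube (n : ℕ) : Set (EuclideanSpace ℝ (Fin n)) := {y | ∀ i, |y i| ≤ 1}

end Vale.Agent.P126
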