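import Mathlib

/-!
The combinatorial gadget for the counterexample to the duality conjecture for metric entropy.
-/

namespace Vale.Agent.P126

open Finset

open Classical in
/-- The agreement set of two words. -/
noncomputable def agr {Ω S : Type} [Fintype Ω] (u p : Ω → S) : Finset Ω :=
  univ.filter fun ω => u ω = p ω

open Classical in
/-- The agreement set after erasing the letters of `p` outside `V`. -/
noncomputable def agrV {Ω S : Type} [Fintype Ω] (V : Finset (Ω × S)) (u p : Ω → S) : Finset Ω :=
  univ.filter fun ω => u ω = p ω ∧ (ω, p ω) ∈ V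

open Classical in
/-- The properties of a level function. -/
def Good (L : ℕ) (ε η : ℝ) (Ω T : Type) [Fintype Ω] (φ : T → Finset Ω → ℕ) : Prop :=
  0 < Fintype.card Ω ∧ (∀ τ, φ τ univ = L + 1) ∧ (∀ τ A, φ τ A ≤ L + 1) ∧
  (∀ τ A B, A ⊆ B → φ τ A ≤ φ τ B) ∧
  (∀ A : Finset Ω, A.card * 2 ^ L < Fintype.card Ω → ∃ τ, φ τ A = 0) ∧
  (∀ (S ι : Type) [Fintype ι] (w : ι → ℝ) (τ : ι → T) (p : ι → Ω → S),
    (∀ j, 0 ≤ w j) → ∑ j, w j ≤ 1 →
      ∃ V : Finset (Ω × S), (V.card : ℝ) ≤ ε * Fintype.card Ω ∧ ∀ u : Ω → S,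
        ∑ j ∈ univ.filter (fun j => φ (τ j) (agrV V u (p j)) + 1 < φ (τ j) (agr u (p j))), w j ≤ η)

open Classical in
theorem halving {ι : Type} {N : ℕ} (hN : 0 < N) (w : ι → ℝ) (hw : ∀ j, 0 ≤ w j)
    (S : ι → Finset (Fin N)) (hS : ∀ j, N ≤ 2 * (S j).card) (D : Finset ι) (s : ℕ) :
    ∃ C : Finset (Fin N), C.card ≤ s ∧
      ∑ j ∈ D.filter (fun j => Disjoint C (S j)), w j ≤ (1 / 2) ^ s * ∑ j ∈ D, w j := by
  induction s with
  | zero => exact ⟨∅, by simp, by simp⟩
  | succ s ih =>
    obtain ⟨C, hC, hsum⟩ := ih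
    set D' := D.filter (fun j => Disjoint C (S j)) with hD'
    have key : ∃ i : Fin N, ∑ j ∈ D'.filter (fun j => i ∉ S j), w j ≤ (1 / 2) * ∑ j ∈ D', w j := by
      by_contra hcon
      push_neg at hcon
      have h1 : ∑ _i : Fin N, (1 / 2) * ∑ j ∈ D', w j <
          ∑ i : Fin N, ∑ j ∈ D'.filter (fun j => i ∉ S j), w j :=
        Finset.sum_lt_sum_of_nonempty ⟨⟨0, hN⟩, mem_univ _⟩ fun i _ => hcon i
      have h2 : ∑ i : Fin N, ∑ j ∈ D'.filter (fun j => i ∉ S j), w j
          = ∑ j ∈ D', ((N : ℝ) - (S j).card) * w j := by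
        simp_rw [Finset.sum_filter]
        rw [Finset.sum_comm]
        refine Finset.sum_congr rfl fun j _ => ?_
        rw [← Finset.sum_filter, Finset.sum_const, nsmul_eq_mul]
        congr 1
        have : (univ.filter fun i : Fin N => i ∉ S j) = (S j)ᶜ := by ext i; simp
        rw [this, Finset.card_compl, Fintype.card_fin, Nat.cast_sub]
        simpa using Finset.card_le_univ (S j)
      have h3 : ∑ j ∈ D', ((N : ℝ) - (S j).card) * w j ≤ ∑ j ∈ D', ((N : ℝ) / 2) * w j := by
        refine Finset.sum_le_sum fun j _ => mul_le_mul_of_nonneg_right ?_ (hw j)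
        have : (N : ℝ) ≤ 2 * (S j).card := by exact_mod_cast hS j
        linarith
      rw [← Finset.mul_sum] at h3
      rw [Finset.sum_const, Finset.card_univ, Fintype.card_fin, nsmul_eq_mul] at h1
      linarith
    obtain ⟨i, hi⟩ := key
    refine ⟨insert i C, (Finset.card_insert_le _ _).trans (by omega), ?_⟩
    have : D.filter (fun j => Disjoint (insert i C) (S j)) = D'.filter (fun j => i ∉ S j) := by
      ext j; simp [hD', Finset.disjoint_insert_left]; tauto
    rw [this, pow_succ]
    linarith

theorem sum_biUnion_le' {ι κ : Type} [DecidableEq ι] (w : ι → ℝ) (hw : ∀ j, 0 ≤ w j)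
    (s : Finset κ) (B : κ → Finset ι) : ∑ j ∈ s.biUnion B, w j ≤ ∑ i ∈ s, ∑ j ∈ B i, w j := by
  classical
  induction s using Finset.induction_on with
  | empty => simp
  | insert a s ha ih =>
    rw [Finset.biUnion_insert, Finset.sum_insert ha]
    have h1 := Finset.sum_union_inter (s₁ := B a) (s₂ := s.biUnion B) (f := w)
    have : 0 ≤ ∑ j ∈ B a ∩ s.biUnion B, w j := Finset.sum_nonneg fun j _ => hw j
    linarith

theorem good_zero (ε η : ℝ) (hε : 0 ≤ ε) (hη : 0 ≤ η) :
    Good 0 ε η Unit Unit (fun _ A => A.card) := by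
  classical
  refine ⟨by simp, by simp, ?_, ?_, ?_, ?_⟩
  · intro _ A; simpa using Finset.card_le_univ A
  · intro _ A B h; exact Finset.card_le_card h
  · intro A hA; exact ⟨(), by simpa using hA⟩
  · intro S ι _ w τ p hw hsum
    refine ⟨∅, by simpa using hε, fun u => ?_⟩
    rw [Finset.filter_false_of_mem]
    · simpa using hη
    · intro j _
      have : (agr u (p j)).card ≤ 1 := by simpa using Finset.card_le_univ (agr u (p j))
      simp only
      omega

open Classical in
/-- The slice of a set of pairs. -/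
noncomputable def slice {N : ℕ} {Ω : Type} [Fintype Ω] (A : Finset (Fin N × Ω)) (i : Fin N) :
    Finset Ω := univ.filter fun ω => (i, ω) ∈ A

theorem sum_card_slice {N : ℕ} {Ω : Type} [Fintype Ω] (A : Finset (Fin N × Ω)) :
    ∑ i, (slice A i).card = A.card := by
  classical
  have : A.card = ∑ x : Fin N × Ω, if x ∈ A then 1 else 0 := by
    rw [← Finset.sum_filter]; simp
  rw [this, Fintype.sum_prod_type]
  refine Finset.sum_congr rfl fun i _ => ?_
  rw [← Finset.sum_filter]
  simp only [slice, Finset.sum_const, smul_eq_mul, mul_one]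

open Classical in
/-- The level function one step up. -/
noncomputable def up {N : ℕ} {Ω T : Type} [Fintype Ω] (L : ℕ) (φ : T → Finset Ω → ℕ)
    (τ : {S : Finset (Fin N) // N ≤ 2 * S.card} × (Fin N → T)) (A : Finset (Fin N × Ω)) : ℕ :=
  max (if A = univ then L + 2 else 0) (τ.1.1.sup fun i => φ (τ.2 i) (slice A i))

theorem good_up {L : ℕ} {ε η : ℝ} (hε : 0 < ε) (hη : 0 < η) {N s : ℕ} (hN : 0 < N)
    (hs : (1 / 2 : ℝ) ^ s ≤ η / 2) (hNs : 4 * s ≤ ε * η * N)
    {Ω T : Type} [Fintype Ω] {φ : T → Finset Ω → ℕ}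
    (h : Good L (ε / 2) (η / (2 * N)) Ω T φ) :
    Good (L + 1) ε η (Fin N × Ω) ({S : Finset (Fin N) // N ≤ 2 * S.card} × (Fin N → T))
      (up L φ) := by
  classical
  obtain ⟨h0, h1, h2, h3, h4, h5⟩ := h
  have hsl : ∀ (A B : Finset (Fin N × Ω)) i, A ⊆ B → slice A i ⊆ slice B i := by
    intro A B i hAB ω
    simp only [slice, Finset.mem_filter, Finset.mem_univ, true_and]
    exact fun hω => hAB hω
  have hsup : ∀ (τ : {S : Finset (Fin N) // N ≤ 2 * S.card} × (Fin N → T)) A,
      (τ.1.1.sup fun i => φ (τ.2 i) (slice A i)) ≤ L + 1 := fun τ A =>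
    Finset.sup_le fun i _ => h2 _ _
  refine ⟨by simp [hN, h0], ?_, ?_, ?_, ?_, ?_⟩
  · intro τ
    have := hsup τ univ
    simp only [up, if_true]
    omega
  · intro τ A
    have := hsup τ A
    simp only [up]
    split_ifs <;> omega
  · intro τ A B hAB
    simp only [up]
    refine max_le_max ?_ ?_
    · by_cases hA : A = univ
      · have hB : B = univ := Finset.eq_univ_of_forall fun x => hAB (hA ▸ mem_univ x)
        simp [hA, hB]
      · simp [hA]
    · exact Finset.sup_mono_fun fun i _ => h3 _ _ _ (hsl A B i hAB)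
  · intro A hA
    rw [Fintype.card_prod, Fintype.card_fin] at hA
    set G : Finset (Fin N) := univ.filter fun i => (slice A i).card * 2 ^ L < Fintype.card Ω with hG
    have hGc : N ≤ 2 * G.card := by
      have e1 : Gᶜ.card * Fintype.card Ω ≤ ∑ i ∈ Gᶜ, (slice A i).card * 2 ^ L := by
        rw [← smul_eq_mul, ← Finset.sum_const]
        refine Finset.sum_le_sum fun i hi => ?_
        simpa [hG] using hi
      have e2 : ∑ i ∈ Gᶜ, (slice A i).card * 2 ^ L ≤ A.card * 2 ^ L := by
        rw [← sum_card_slice A, Finset.sum_mul]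
        exact Finset.sum_le_sum_of_subset (Finset.subset_univ _)
      have e3 : Gᶜ.card + G.card = N := by
        rw [add_comm, Finset.card_add_card_compl]; simp
      have e4 : 2 * Gᶜ.card * Fintype.card Ω < N * Fintype.card Ω := by
        rw [pow_succ] at hA; nlinarith
      have e5 : 2 * Gᶜ.card < N := lt_of_mul_lt_mul_right e4 (Nat.zero_le _)
      omega
    obtain ⟨τ0, -⟩ := h4 ∅ (by simpa using h0)
    have hch : ∀ i, ∃ τ, i ∈ G → φ τ (slice A i) = 0 := by
      intro i
      by_cases hi : i ∈ G
      · obtain ⟨τ, hτ⟩ := h4 (slice A i) (by simpa [hG] using hi)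
        exact ⟨τ, fun _ => hτ⟩
      · exact ⟨τ0, fun h => absurd h hi⟩
    choose t ht using hch
    refine ⟨(⟨G, hGc⟩, t), ?_⟩
    have hne : A ≠ univ := by
      rintro rfl
      rw [Finset.card_univ, Fintype.card_prod, Fintype.card_fin] at hA
      have : 1 ≤ 2 ^ (L + 1) := Nat.one_le_two_pow
      exact absurd hA (not_lt.2 (Nat.le_mul_of_pos_right _ this))
    simp only [up, hne, if_false, Nat.zero_max]
    exact Nat.le_zero.1 (Finset.sup_le fun i hi => (ht i hi).le)
  · intro S ι _ w τ p hw hsum
    have hV := fun i : Fin N => h5 S ι w (fun j => (τ j).2 i) (fun j ω => p j (i, ω)) hw hsum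
    choose V hVc hVb using hV
    have hC := fun ℓ : Fin N × Ω → S => halving hN w hw (fun j => (τ j).1.1) (fun j => (τ j).1.2)
      (univ.filter fun j => p j = ℓ) s
    choose C hCc hCb using hC
    set W : (Fin N × Ω → S) → ℝ := fun ℓ => ∑ j ∈ univ.filter (fun j => p j = ℓ), w j with hW
    set Pop : Finset (Fin N × Ω → S) := (univ.image p).filter fun ℓ => η / 2 ≤ W ℓ with hPop
    have hPc : (Pop.card : ℝ) * (η / 2) ≤ 1 := by
      have e1 : (Pop.card : ℝ) * (η / 2) ≤ ∑ ℓ ∈ Pop, W ℓ := by
        rw [← nsmul_eq_mul, ← Finset.sum_const]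
        exact Finset.sum_le_sum fun ℓ hℓ => (Finset.mem_filter.1 hℓ).2
      have e2 : ∑ ℓ ∈ Pop, W ℓ ≤ ∑ ℓ ∈ univ.image p, W ℓ :=
        Finset.sum_le_sum_of_subset_of_nonneg (Finset.filter_subset _ _)
          fun ℓ _ _ => Finset.sum_nonneg fun j _ => hw j
      have e3 : ∑ ℓ ∈ univ.image p, W ℓ = ∑ j, w j :=
        Finset.sum_fiberwise_of_maps_to (fun j hj => Finset.mem_image_of_mem p hj) w
      linarith
    set Vlow : Finset ((Fin N × Ω) × S) :=
      univ.biUnion fun i => (V i).image fun e => ((i, e.1), e.2) with hVlow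
    set Vtop : Finset ((Fin N × Ω) × S) :=
      Pop.biUnion fun ℓ => (C ℓ ×ˢ (univ : Finset Ω)).image fun e => (e, ℓ e) with hVtop
    have hNpos : (0 : ℝ) < N := by exact_mod_cast hN
    refine ⟨Vlow ∪ Vtop, ?_, ?_⟩
    · have e1 : (Vlow.card : ℝ) ≤ N * (ε / 2 * Fintype.card Ω) := by
        have : Vlow.card ≤ ∑ i, (V i).card :=
          Finset.card_biUnion_le.trans (Finset.sum_le_sum fun i _ => Finset.card_image_le)
        calc (Vlow.card : ℝ) ≤ ∑ i, ((V i).card : ℝ) := by exact_mod_cast this
          _ ≤ ∑ _i : Fin N, ε / 2 * Fintype.card Ω := Finset.sum_le_sum fun i _ => hVc i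
          _ = _ := by simp
      have e2 : (Vtop.card : ℝ) ≤ Pop.card * (s * Fintype.card Ω) := by
        have : Vtop.card ≤ ∑ _ℓ ∈ Pop, s * Fintype.card Ω := by
          refine Finset.card_biUnion_le.trans (Finset.sum_le_sum fun ℓ _ => ?_)
          refine Finset.card_image_le.trans ?_
          rw [Finset.card_product, Finset.card_univ]
          exact Nat.mul_le_mul_right _ (hCc ℓ)
        rw [Finset.sum_const, smul_eq_mul] at this
        exact_mod_cast this
      have e3 : (Pop.card : ℝ) * s ≤ ε / 2 * N := by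
        have : (Pop.card : ℝ) * s * η ≤ ε / 2 * N * η := by
          have hs0 : (0 : ℝ) ≤ s := Nat.cast_nonneg s
          nlinarith
        exact le_of_mul_le_mul_right this hη
      have e4 : ((Vlow ∪ Vtop).card : ℝ) ≤ Vlow.card + Vtop.card := by
        exact_mod_cast Finset.card_union_le _ _
      have hΩ : (0 : ℝ) ≤ Fintype.card Ω := Nat.cast_nonneg _
      rw [Fintype.card_prod, Fintype.card_fin, Nat.cast_mul]
      nlinarith
    · intro u
      set B0 : Finset ι := univ.filter fun j =>
        p j = u ∧ (u ∉ Pop ∨ Disjoint (C u) (τ j).1.1) with hB0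
      set B : Fin N → Finset ι := fun i => univ.filter fun j =>
        φ ((τ j).2 i) (agrV (V i) (fun ω => u (i, ω)) (fun ω => p j (i, ω))) + 1 <
          φ ((τ j).2 i) (agr (fun ω => u (i, ω)) (fun ω => p j (i, ω))) with hB
      have hsub : univ.filter (fun j => up L φ (τ j) (agrV (Vlow ∪ Vtop) u (p j)) + 1 <
          up L φ (τ j) (agr u (p j))) ⊆ B0 ∪ univ.biUnion B := by
        intro j hj
        by_contra hcon
        rw [Finset.mem_union, not_or] at hcon
        obtain ⟨hc0, hc1⟩ := hcon
        have hj' := (Finset.mem_filter.1 hj).2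
        have hlow : ∀ i ∈ (τ j).1.1, φ ((τ j).2 i) (slice (agrV (Vlow ∪ Vtop) u (p j)) i) ≤
            up L φ (τ j) (agrV (Vlow ∪ Vtop) u (p j)) := fun i hi =>
          le_max_of_le_right (Finset.le_sup (f := fun i =>
            φ ((τ j).2 i) (slice (agrV (Vlow ∪ Vtop) u (p j)) i)) hi)
        by_cases hfull : agr u (p j) = univ
        · have hpu : p j = u := by
            funext x
            have : x ∈ agr u (p j) := hfull ▸ mem_univ x
            simp only [agr, Finset.mem_filter, Finset.mem_univ, true_and] at this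
            exact this.symm
          have : u ∈ Pop ∧ ¬ Disjoint (C u) (τ j).1.1 := by
            simp only [hB0, Finset.mem_filter, Finset.mem_univ, true_and, hpu, not_or,
              not_not] at hc0
            exact hc0
          obtain ⟨hP, hD⟩ := this
          obtain ⟨i, hiC, hiS⟩ := Finset.not_disjoint_iff.1 hD
          have hslice : slice (agrV (Vlow ∪ Vtop) u (p j)) i = univ := by
            refine Finset.eq_univ_of_forall fun ω => ?_
            simp only [slice, agrV, Finset.mem_filter, Finset.mem_univ, true_and, hpu]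
            refine Finset.mem_union_right _ (Finset.mem_biUnion.2 ⟨u, hP, ?_⟩)
            exact Finset.mem_image.2 ⟨(i, ω), by simp [hiC], rfl⟩
          have e1 := hlow i hiS
          rw [hslice, h1] at e1
          have e2 : up L φ (τ j) (agr u (p j)) ≤ L + 2 := by
            have := hsup (τ j) (agr u (p j))
            simp only [up]
            split_ifs <;> omega
          omega
        · have e1 : up L φ (τ j) (agr u (p j)) ≤ up L φ (τ j) (agrV (Vlow ∪ Vtop) u (p j)) + 1 := by
            simp only [up, hfull, if_false, Nat.zero_max]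
            refine Finset.sup_le fun i hi => ?_
            have hnb : j ∉ B i := fun hb => hc1 (Finset.mem_biUnion.2 ⟨i, mem_univ _, hb⟩)
            simp only [hB, Finset.mem_filter, Finset.mem_univ, true_and, not_lt] at hnb
            have f1 : slice (agr u (p j)) i = agr (fun ω => u (i, ω)) (fun ω => p j (i, ω)) := by
              ext ω; simp [slice, agr]
            have f2 : agrV (V i) (fun ω => u (i, ω)) (fun ω => p j (i, ω)) ⊆
                slice (agrV (Vlow ∪ Vtop) u (p j)) i := by
              intro ω hω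
              simp only [slice, agrV, Finset.mem_filter, Finset.mem_univ, true_and] at hω ⊢
              refine ⟨hω.1, Finset.mem_union_left _ (Finset.mem_biUnion.2 ⟨i, mem_univ _, ?_⟩)⟩
              exact Finset.mem_image.2 ⟨_, hω.2, rfl⟩
            have f3 := h3 ((τ j).2 i) _ _ f2
            have f4 := hlow i hi
            simp only [up] at f4
            rw [f1]
            omega
          omega
      have e0 : ∑ j ∈ B0, w j ≤ η / 2 := by
        by_cases hP : u ∈ Pop
        · have : B0 = (univ.filter fun j => p j = u).filter fun j => Disjoint (C u) (τ j).1.1 := by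
            ext j; simp [hB0, hP]
          rw [this]
          refine (hCb u).trans ?_
          have : ∑ j ∈ univ.filter (fun j => p j = u), w j ≤ 1 :=
            (Finset.sum_le_sum_of_subset_of_nonneg (Finset.filter_subset _ _)
              fun j _ _ => hw j).trans hsum
          have h2s : (0 : ℝ) ≤ (1 / 2) ^ s := by positivity
          nlinarith
        · have : B0 = univ.filter fun j => p j = u := by
            ext j; simp [hB0, hP]
          rw [this]
          by_cases him : u ∈ univ.image p
          · have : ¬ η / 2 ≤ W u := fun hh => hP (Finset.mem_filter.2 ⟨him, hh⟩)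
            exact (not_le.1 this).le
          · rw [Finset.filter_false_of_mem]
            · simp; positivity
            · intro j _ hj
              exact him (Finset.mem_image.2 ⟨j, mem_univ _, hj⟩)
      have e1 : ∑ j ∈ univ.biUnion B, w j ≤ ∑ i, ∑ j ∈ B i, w j :=
        sum_biUnion_le' w hw _ _
      have e2 : ∑ i, ∑ j ∈ B i, w j ≤ ∑ _i : Fin N, η / (2 * N) :=
        Finset.sum_le_sum fun i _ => hVb i _
      have e3 : ∑ _i : Fin N, η / (2 * N) = η / 2 := by
        simp; field_simp
      have e4 : ∑ j ∈ B0 ∪ univ.biUnion B, w j ≤ ∑ j ∈ B0, w j + ∑ j ∈ univ.biUnion B, w j := by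
        rw [← Finset.sum_union_inter]
        have : 0 ≤ ∑ j ∈ B0 ∩ univ.biUnion B, w j := Finset.sum_nonneg fun j _ => hw j
        linarith
      have e5 := Finset.sum_le_sum_of_subset_of_nonneg hsub fun j _ _ => hw j
      linarith

theorem exists_good (L : ℕ) : ∀ (ε η : ℝ), 0 < ε → 0 < η →
    ∃ (Ω T : Type) (_ : Fintype Ω) (_ : Fintype T) (φ : T → Finset Ω → ℕ), Good L ε η Ω T φ := by
  induction L with
  | zero => exact fun ε η hε hη => ⟨Unit, Unit, inferInstance, inferInstance, _,
      good_zero ε η hε.le hη.le⟩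
  | succ L ih =>
    intro ε η hε hη
    classical
    obtain ⟨s, hs⟩ := exists_pow_lt_of_lt_one (show 0 < η / 2 by positivity)
      (show (1 / 2 : ℝ) < 1 by norm_num)
    obtain ⟨N, hN⟩ := exists_nat_gt (4 * s / (ε * η))
    have hN0 : (0 : ℝ) < N := lt_of_le_of_lt (by positivity) hN
    have hNs : 4 * (s : ℝ) ≤ ε * η * N := by
      rw [div_lt_iff₀ (by positivity)] at hN
      linarith
    obtain ⟨Ω, T, iΩ, iT, φ, h⟩ := ih (ε / 2) (η / (2 * N)) (by positivity) (by positivity)
    exact ⟨_, _, inferInstance, inferInstance, _,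
      good_up hε hη (by exact_mod_cast hN0) hs.le hNs h⟩

end Vale.Agent.P126
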