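import Vale.Agent.P126.Cover
import Vale.Agent.P126.Gadget

namespace Vale.Agent.P126

open Finset

/-- The columns of the matrix. -/
noncomputable def col {Ω T S : Type} [Fintype Ω] {n : ℕ} (L : ℕ) (φ : T → Finset Ω → ℕ)
    (e : Fin n ≃ T × (Ω → S)) (u : Ω → S) : EuclideanSpace ℝ (Fin n) :=
  WithLp.toLp 2 fun i => 3 * ((φ (e i).1 (agr u (e i).2) : ℝ) / (L + 1))

theorem card_ball {Ω : Type} [Fintype Ω] [DecidableEq Ω] {M : ℕ} (hM : 0 < M) (r : ℕ)
    (u0 : Ω → Fin M) (U : Finset (Ω → Fin M)) (hU : ∀ u ∈ U, r ≤ (agr u u0).card) :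
    U.card * M ^ r ≤ 2 ^ Fintype.card Ω * M ^ Fintype.card Ω := by
  classical
  set 𝒜 : Finset (Finset Ω) := univ.filter fun A => r ≤ A.card with h𝒜
  set B : Finset Ω → Finset (Ω → Fin M) := fun A =>
    Fintype.piFinset fun ω => if ω ∈ A then {u0 ω} else univ with hB
  have hsub : U ⊆ 𝒜.biUnion B := by
    intro u hu
    refine Finset.mem_biUnion.2 ⟨agr u u0, by simpa [h𝒜] using hU u hu, ?_⟩
    simp only [hB, Fintype.mem_piFinset]
    intro ω
    split_ifs with h
    · simpa [agr] using h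
    · simp
  have hBc : ∀ A ∈ 𝒜, (B A).card * M ^ r ≤ M ^ Fintype.card Ω := by
    intro A hA
    have hr : r ≤ A.card := by simpa [h𝒜] using hA
    have h1 : (B A).card = M ^ Aᶜ.card := by
      simp only [hB, Fintype.card_piFinset]
      rw [← Finset.prod_mul_prod_compl A]
      rw [Finset.prod_congr rfl (g := fun _ => 1) (fun ω hω => by simp [hω]),
        Finset.prod_congr (s₁ := Aᶜ) rfl (g := fun _ => M)
          (fun ω hω => by simp [Finset.mem_compl.1 hω])]
      simp
    rw [h1, ← pow_add]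
    refine Nat.pow_le_pow_right hM ?_
    have := Finset.card_add_card_compl A
    omega
  calc U.card * M ^ r ≤ (∑ A ∈ 𝒜, (B A).card) * M ^ r :=
        Nat.mul_le_mul_right _ ((Finset.card_le_card hsub).trans Finset.card_biUnion_le)
    _ ≤ ∑ _A ∈ 𝒜, M ^ Fintype.card Ω := by
        rw [Finset.sum_mul]; exact Finset.sum_le_sum hBc
    _ ≤ _ := by
        rw [Finset.sum_const, smul_eq_mul]
        refine Nat.mul_le_mul_right _ ?_
        simpa using Finset.card_le_univ 𝒜

theorem lower {L : ℕ} {ε η κ : ℝ} (hκ : 0 < κ) {Ω T : Type} [Fintype Ω] {φ : T → Finset Ω → ℕ}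
    (h : Good L ε η Ω T φ) {M n : ℕ} (hM : 0 < M) (e : Fin n ≃ T × (Ω → Fin M)) (r : ℕ)
    (hr : ∀ k, Fintype.card Ω ≤ k * 2 ^ L → r ≤ k) {m : ℕ}
    (hc : CoveredBy (body (col L φ e) κ) (cube n) m) : M ^ r ≤ m * 2 ^ Fintype.card Ω := by
  classical
  obtain ⟨-, h1, -, -, h4, -⟩ := h
  obtain ⟨c, hc⟩ := hc
  have := fun u => hc _ (mem_body (col L φ e) hκ u)
  choose idx z hz hzz using this
  have hclose : ∀ u u0, idx u = idx u0 → r ≤ (agr u u0).card := by
    intro u u0 hu
    refine hr _ (not_lt.1 fun hlt => ?_)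
    obtain ⟨τ, hτ⟩ := h4 _ hlt
    have e1 : col L φ e u (e.symm (τ, u0)) = 0 := by simp [col, hτ]
    have e2 : col L φ e u0 (e.symm (τ, u0)) = 3 := by
      have : agr u0 u0 = univ := by ext ω; simp [agr]
      have hL : (L : ℝ) + 1 ≠ 0 := by positivity
      simp [col, this, h1, div_self hL]
    have f1 := abs_le.1 (hz u (e.symm (τ, u0)))
    have f2 := abs_le.1 (hz u0 (e.symm (τ, u0)))
    rw [hzz u, PiLp.add_apply] at e1
    rw [hzz u0, PiLp.add_apply, ← hu] at e2
    linarith [f1.1, f2.2]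
  have hfib : ∀ j : Fin m, (univ.filter fun u => idx u = j).card * M ^ r ≤
      2 ^ Fintype.card Ω * M ^ Fintype.card Ω := by
    intro j
    rcases (univ.filter fun u => idx u = j).eq_empty_or_nonempty with h0 | ⟨u0, hu0⟩
    · simp [h0]
    · refine card_ball hM r u0 _ fun u hu => hclose u u0 ?_
      rw [(Finset.mem_filter.1 hu).2, (Finset.mem_filter.1 hu0).2]
  have htot : M ^ Fintype.card Ω = ∑ j : Fin m, (univ.filter fun u => idx u = j).card := by
    rw [← Finset.card_eq_sum_card_fiberwise (fun u _ => mem_univ (idx u))]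
    simp
  have : M ^ Fintype.card Ω * M ^ r ≤ M ^ Fintype.card Ω * (m * 2 ^ Fintype.card Ω) := by
    calc M ^ Fintype.card Ω * M ^ r
        = ∑ j : Fin m, (univ.filter fun u => idx u = j).card * M ^ r := by
          rw [← Finset.sum_mul, ← htot]
      _ ≤ ∑ _j : Fin m, 2 ^ Fintype.card Ω * M ^ Fintype.card Ω := Finset.sum_le_sum fun j _ => hfib j
      _ = _ := by simp; ring
  exact Nat.le_of_mul_le_mul_left this (pow_pos hM _)

open Classical in
/-- The value of a pattern at a word. -/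
noncomputable def psi {Ω T S : Type} [Fintype Ω] {v : ℕ} (L : ℕ) (φ : T → Finset Ω → ℕ)
    (l : Fin v → Option (Ω × S)) (y : T × Finset (Fin v)) (u : Ω → S) : ℝ :=
  (φ y.1 (univ.filter fun ω => ∃ r ∈ y.2, l r = some (ω, u ω)) : ℝ) / (L + 1)

theorem approx {L : ℕ} {ε η : ℝ} {Ω T S : Type} [Fintype Ω] [Fintype T] {φ : T → Finset Ω → ℕ}
    (h : Good L ε η Ω T φ) {n : ℕ} (e : Fin n ≃ T × (Ω → S)) {v G : ℕ} (hG : 0 < G)
    (hv : ∀ k : ℕ, (k : ℝ) ≤ ε * Fintype.card Ω → k ≤ v)
    (μ : EuclideanSpace ℝ (Fin n)) (hμ : ∑ i, |μ i| ≤ 1) :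
    ∃ (l : Fin v → Option (Ω × S)) (k : T × Finset (Fin v) → ℤ),
      (∀ y, k y ∈ Finset.Icc (-(G : ℤ)) G) ∧ ∀ u,
        |inner ℝ (col L φ e u) μ - 3 * ∑ y, (k y / G : ℝ) * psi L φ l y u| ≤
          3 * (1 / (L + 1) + η + Fintype.card (T × Finset (Fin v)) / G) := by
  classical
  obtain ⟨-, -, h2, h3, -, h5⟩ := h
  obtain ⟨V, hVc, hVb⟩ := h5 S (Fin n) (fun i => |μ i|) (fun i => (e i).1) (fun i => (e i).2)
    (fun i => abs_nonneg _) hμ
  have hVv : V.card ≤ v := hv _ hVc
  set l : Fin v → Option (Ω × S) := fun r => V.toList[(r : ℕ)]? with hl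
  have hlV : ∀ x, x ∈ V ↔ ∃ r, l r = some x := by
    intro x
    rw [← Finset.mem_toList, List.mem_iff_getElem?]
    constructor
    · rintro ⟨i, hi⟩
      have : i < V.toList.length := (List.getElem?_eq_some_iff.1 hi).1
      rw [Finset.length_toList] at this
      exact ⟨⟨i, by omega⟩, hi⟩
    · rintro ⟨r, hr⟩; exact ⟨r, hr⟩
  set pat : Fin n → T × Finset (Fin v) := fun i =>
    ((e i).1, univ.filter fun r => ∃ ω, l r = some (ω, (e i).2 ω)) with hpat
  have hpsi : ∀ i u, psi L φ l (pat i) u = (φ (e i).1 (agrV V u (e i).2) : ℝ) / (L + 1) := by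
    intro i u
    simp only [psi, hpat]
    congr 3
    ext ω
    simp only [agrV, Finset.mem_filter, Finset.mem_univ, true_and]
    constructor
    · rintro ⟨r, ⟨ω', h1⟩, h2⟩
      rw [h1] at h2
      obtain ⟨rfl, h3⟩ := Prod.mk.inj (Option.some.inj h2)
      exact ⟨h3.symm, (hlV _).2 ⟨r, h1⟩⟩
    · rintro ⟨h1, h2⟩
      obtain ⟨r, hr⟩ := (hlV _).1 h2
      exact ⟨r, ⟨ω, hr⟩, by rw [hr, h1]⟩
  set m : T × Finset (Fin v) → ℝ := fun y => ∑ i ∈ univ.filter (fun i => pat i = y), μ i with hm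
  have hm1 : ∀ y, |m y| ≤ 1 := fun y =>
    (Finset.abs_sum_le_sum_abs _ _).trans
      ((Finset.sum_le_sum_of_subset_of_nonneg (Finset.filter_subset _ _)
        fun i _ _ => abs_nonneg _).trans hμ)
  have hGr : (0 : ℝ) < G := by exact_mod_cast hG
  have hL : (0 : ℝ) < L + 1 := by positivity
  refine ⟨l, fun y => ⌊G * m y⌋, fun y => ?_, fun u => ?_⟩
  · have := abs_le.1 (hm1 y)
    rw [Finset.mem_Icc]
    constructor
    · rw [Int.le_floor]; push_cast; nlinarith [this.1]
    · have : (⌊G * m y⌋ : ℝ) ≤ G := (Int.floor_le _).trans (by nlinarith [this.2])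
      exact_mod_cast this
  · have hp01 : ∀ y, 0 ≤ psi L φ l y u ∧ psi L φ l y u ≤ 1 := by
      intro y
      refine ⟨by unfold psi; positivity, ?_⟩
      unfold psi
      rw [div_le_one hL]
      exact_mod_cast h2 _ _
    have e1 : inner ℝ (col L φ e u) μ =
        3 * ∑ i, μ i * ((φ (e i).1 (agr u (e i).2) : ℝ) / (L + 1)) := by
      simp only [col, PiLp.inner_apply, RCLike.inner_apply, conj_trivial, Finset.mul_sum]
      exact Finset.sum_congr rfl fun i _ => by ring
    have e2 : ∑ i, μ i * psi L φ l (pat i) u = ∑ y, m y * psi L φ l y u := by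
      rw [← Finset.sum_fiberwise (s := univ) (g := pat)]
      refine Finset.sum_congr rfl fun y _ => ?_
      rw [hm, Finset.sum_mul]
      exact Finset.sum_congr rfl fun i hi => by rw [(Finset.mem_filter.1 hi).2]
    have e3 : |∑ y, m y * psi L φ l y u - ∑ y, ((⌊G * m y⌋ : ℤ) / G : ℝ) * psi L φ l y u| ≤
        Fintype.card (T × Finset (Fin v)) / G := by
      rw [← Finset.sum_sub_distrib]
      refine (Finset.abs_sum_le_sum_abs _ _).trans ?_
      have : ∀ y, |m y * psi L φ l y u - ((⌊G * m y⌋ : ℤ) / G : ℝ) * psi L φ l y u| ≤ 1 / G := by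
        intro y
        rw [← sub_mul, abs_mul, abs_of_nonneg (hp01 y).1]
        have a1 : |m y - ((⌊G * m y⌋ : ℤ) / G : ℝ)| ≤ 1 / G := by
          have b1 := Int.floor_le (G * m y)
          have b2 := Int.lt_floor_add_one (G * m y)
          have : m y - ((⌊G * m y⌋ : ℤ) / G : ℝ) = (G * m y - ⌊G * m y⌋) / G := by field_simp
          rw [this, abs_div, abs_of_pos hGr]
          refine div_le_div_of_nonneg_right (abs_le.2 ⟨by linarith, by linarith⟩) hGr.le
        calc _ ≤ 1 / (G : ℝ) * 1 := mul_le_mul a1 (hp01 y).2 (hp01 y).1 (by positivity)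
          _ = _ := mul_one _
      refine (Finset.sum_le_sum fun y _ => this y).trans ?_
      rw [Finset.sum_const, Finset.card_univ, nsmul_eq_mul, mul_one_div]
    have e4 : |∑ i, μ i * ((φ (e i).1 (agr u (e i).2) : ℝ) / (L + 1)) -
        ∑ i, μ i * psi L φ l (pat i) u| ≤ 1 / (L + 1) + η := by
      rw [← Finset.sum_sub_distrib]
      refine (Finset.abs_sum_le_sum_abs _ _).trans ?_
      have hb := hVb u
      rw [Finset.sum_filter] at hb
      have : ∀ i, |μ i * ((φ (e i).1 (agr u (e i).2) : ℝ) / (L + 1)) - μ i * psi L φ l (pat i) u|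
          ≤ |μ i| * (1 / (L + 1)) + if φ (e i).1 (agrV V u (e i).2) + 1 <
            φ (e i).1 (agr u (e i).2) then |μ i| else 0 := by
        intro i
        rw [← mul_sub, abs_mul, hpsi, ← sub_div, abs_div, abs_of_pos hL]
        have a1 : φ (e i).1 (agrV V u (e i).2) ≤ φ (e i).1 (agr u (e i).2) := by
          refine h3 _ _ _ fun ω hω => ?_
          simp only [agrV, agr, Finset.mem_filter, Finset.mem_univ, true_and] at hω ⊢
          exact hω.1
        have a2 := h2 (e i).1 (agr u (e i).2)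
        have a1' : (φ (e i).1 (agrV V u (e i).2) : ℝ) ≤ φ (e i).1 (agr u (e i).2) := by
          exact_mod_cast a1
        rw [abs_of_nonneg (sub_nonneg.2 a1')]
        have hμi := abs_nonneg (μ i)
        split_ifs with hi
        · have a3 : ((φ (e i).1 (agr u (e i).2) : ℝ) - φ (e i).1 (agrV V u (e i).2)) / (L + 1)
              ≤ 1 := by
            rw [div_le_one hL]
            have : (φ (e i).1 (agr u (e i).2) : ℝ) ≤ L + 1 := by exact_mod_cast a2
            have : (0 : ℝ) ≤ φ (e i).1 (agrV V u (e i).2) := Nat.cast_nonneg _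
            linarith
          have a4 : 0 ≤ |μ i| * (1 / (L + 1)) := by positivity
          nlinarith
        · rw [add_zero]
          refine mul_le_mul_of_nonneg_left (div_le_div_of_nonneg_right ?_ hL.le) hμi
          have : (φ (e i).1 (agr u (e i).2) : ℝ) ≤ φ (e i).1 (agrV V u (e i).2) + 1 := by
            exact_mod_cast not_lt.1 hi
          linarith
      refine (Finset.sum_le_sum fun i _ => this i).trans ?_
      rw [Finset.sum_add_distrib, ← Finset.sum_mul]
      have : (∑ i, |μ i|) * (1 / ((L : ℝ) + 1)) ≤ 1 * (1 / (L + 1)) :=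
        mul_le_mul_of_nonneg_right hμ (by positivity)
      linarith
    rw [e1, ← mul_sub, abs_mul, abs_of_pos (by norm_num : (0 : ℝ) < 3)]
    refine mul_le_mul_of_nonneg_left ?_ (by norm_num)
    rw [e2] at e4
    exact (abs_sub_le _ _ _).trans (add_le_add e4 e3)

theorem upper {L : ℕ} {ε η κ a : ℝ} (hκ : 0 < κ) (ha : 0 < a) {Ω T : Type} [Fintype Ω] [Fintype T]
    {φ : T → Finset Ω → ℕ} (h : Good L ε η Ω T φ) {M n : ℕ} (e : Fin n ≃ T × (Ω → Fin M))
    {v G : ℕ} (hG : 0 < G) (hv : ∀ k : ℕ, (k : ℝ) ≤ ε * Fintype.card Ω → k ≤ v)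
    (herr : 6 * (1 / (L + 1) + η + Fintype.card (T × Finset (Fin v)) / G) + 2 * κ ≤ a⁻¹) :
    CoveredBy (polarBody (cube n)) (dilate a⁻¹ (polarBody (body (col L φ e) κ)))
      ((Fintype.card Ω * M + 1) ^ v * (2 * G + 1) ^ Fintype.card (T × Finset (Fin v))) := by
  classical
  set s : Finset ((Fin v → Option (Ω × Fin M)) × (T × Finset (Fin v) → ℤ)) :=
    univ ×ˢ Fintype.piFinset fun _ => Finset.Icc (-(G : ℤ)) G with hs
  have hcard : s.card =
      (Fintype.card Ω * M + 1) ^ v * (2 * G + 1) ^ Fintype.card (T × Finset (Fin v)) := by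
    have : (Finset.Icc (-(G : ℤ)) G).card = 2 * G + 1 := by
      rw [Int.card_Icc]; omega
    rw [hs, Finset.card_product, Fintype.card_piFinset, Finset.prod_const, this]
    simp
  rw [← hcard]
  refine coveredBy_of_code s (fun μ b => ∀ u,
    |inner ℝ (col L φ e u) μ - 3 * ∑ y, (b.2 y / G : ℝ) * psi L φ b.1 y u| ≤
          3 * (1 / (L + 1) + η + Fintype.card (T × Finset (Fin v)) / G)) ?_ ?_
  · intro μ hμ
    obtain ⟨l, k, hk, hlk⟩ := approx h e hG hv μ (sum_abs_le_of_mem_polar hμ)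
    exact ⟨(l, k), by simpa [hs] using hk, hlk⟩
  · intro b μ hμ μ' hμ' h1 h2
    refine mem_dilate_polar _ ha hκ _
      (α := 6 * (1 / (L + 1) + η + Fintype.card (T × Finset (Fin v)) / G)) (fun u => ?_) ?_
    · rw [inner_sub_right]
      have a1 := abs_le.1 (h1 u)
      have a2 := abs_le.1 (h2 u)
      exact abs_le.2 ⟨by linarith [a1.1, a2.2], by linarith [a1.2, a2.1]⟩
    · have a1 := (norm_le_sum_abs μ).trans (sum_abs_le_of_mem_polar hμ)
      have a2 := (norm_le_sum_abs μ').trans (sum_abs_le_of_mem_polar hμ')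
      have a3 := norm_sub_le μ μ'
      nlinarith

theorem main (a b : ℝ) (ha : 0 < a) (hb : 0 < b) :
    ∃ n : ℕ, 1 ≤ n ∧ ∃ K : Set (EuclideanSpace ℝ (Fin n)), IsSymmBody K ∧
      (∃ m, CoveredBy K (cube n) m) ∧
      (∃ m, CoveredBy (polarBody (cube n)) (dilate a⁻¹ (polarBody K)) m) ∧
      b * Real.log (coveringNumber (polarBody (cube n)) (dilate a⁻¹ (polarBody K))) <
        Real.log (coveringNumber K (cube n)) := by
  classical
  obtain ⟨L, hL⟩ := exists_nat_gt (24 * a)
  obtain ⟨Ω, T, iΩ, iT, φ, h⟩ := exists_good L (1 / (2 * b * 2 ^ L)) (1 / (24 * a))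
    (by positivity) (by positivity)
  have h0 : 0 < Fintype.card Ω := h.1
  obtain ⟨τ0, -⟩ := h.2.2.2.2.1 ∅ (by simpa using h0)
  set N := Fintype.card Ω with hN
  have hNr : (0 : ℝ) < N := by exact_mod_cast h0
  set v : ℕ := ⌊1 / (2 * b * 2 ^ L) * (N : ℝ)⌋₊ with hv
  set Q := Fintype.card (T × Finset (Fin v)) with hQ
  obtain ⟨G, hG⟩ := exists_nat_gt (24 * a * Q)
  have hGr : (0 : ℝ) < G := lt_of_le_of_lt (by positivity) hG
  have hG0 : 0 < G := by exact_mod_cast hGr
  set r : ℕ := ⌈(N : ℝ) / 2 ^ L⌉₊ with hr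
  set c : ℝ := N * Real.log 2 + b * (v * Real.log (N + 1) + Q * Real.log (2 * G + 1)) with hc
  obtain ⟨M, hM⟩ := exists_nat_gt (Real.exp (c / (N / 2 ^ L / 2)) + 1)
  have hM1 : (1 : ℝ) < M := by linarith [Real.exp_pos (c / (N / 2 ^ L / 2))]
  have hM0 : 0 < M := by exact_mod_cast (zero_lt_one.trans hM1)
  have hlogM : c / (N / 2 ^ L / 2) < Real.log M := by
    rw [Real.lt_log_iff_exp_lt (by linarith)]; linarith
  have hlogM0 : 0 < Real.log M := Real.log_pos hM1
  haveI : Nonempty (Fin M) := ⟨⟨0, hM0⟩⟩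
  haveI : Nonempty T := ⟨τ0⟩
  set n := Fintype.card (T × (Ω → Fin M)) with hn
  set e : Fin n ≃ T × (Ω → Fin M) := (Fintype.equivFin _).symm with he
  have hκ : (0 : ℝ) < 1 / (8 * a) := by positivity
  have hK := isSymmBody_body (col L φ e) hκ
  have hcov := exists_coveredBy hK.1 (cube_mem_nhds (n := n))
  have hup := upper hκ ha h e hG0 (v := v) (fun k hk => Nat.le_floor hk) (by
    have a1 : (1 : ℝ) / (L + 1) ≤ 1 / (24 * a) :=
      one_div_le_one_div_of_le (by positivity) (by linarith)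
    have a2 : (Q : ℝ) / G ≤ 1 / (24 * a) := by
      rw [div_le_div_iff₀ hGr (by positivity)]; linarith
    have a3 : 6 * (3 * (1 / (24 * a))) + 2 * (1 / (8 * a)) = a⁻¹ := by field_simp; norm_num
    rw [← hQ]
    linarith)
  refine ⟨n, Fintype.card_pos, body (col L φ e) (1 / (8 * a)), hK, hcov, ⟨_, hup⟩, ?_⟩
  have hlow := lower hκ h hM0 e r (fun k hk => Nat.ceil_le.2 (by
    rw [div_le_iff₀ (by positivity)]; exact_mod_cast hk)) (Nat.sInf_mem hcov)
  change M ^ r ≤ coveringNumber _ _ * 2 ^ N at hlow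
  have hup' : coveringNumber (polarBody (cube n))
      (dilate a⁻¹ (polarBody (body (col L φ e) (1 / (8 * a))))) ≤
      (N * M + 1) ^ v * (2 * G + 1) ^ Q := Nat.sInf_le hup
  generalize coveringNumber (polarBody (cube n))
      (dilate a⁻¹ (polarBody (body (col L φ e) (1 / (8 * a))))) = D at hup' ⊢
  generalize coveringNumber (body (col L φ e) (1 / (8 * a))) (cube n) = P at hlow ⊢
  have hP : 0 < P := by
    rcases Nat.eq_zero_or_pos P with rfl | hP
    · have := pow_pos hM0 r
      omega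
    · exact hP
  have e1 : r * Real.log M ≤ Real.log P + N * Real.log 2 := by
    have : (M : ℝ) ^ r ≤ P * 2 ^ N := by exact_mod_cast hlow
    have := Real.log_le_log (by positivity) this
    rwa [Real.log_pow, Real.log_mul (by positivity) (by positivity), Real.log_pow] at this
  have e2 : Real.log D ≤ v * (Real.log (N + 1) + Real.log M) + Q * Real.log (2 * G + 1) := by
    have b1 : (D : ℝ) ≤ ((N + 1) * M) ^ v * (2 * G + 1) ^ Q := by
      have : (D : ℝ) ≤ (N * M + 1) ^ v * (2 * G + 1) ^ Q := by exact_mod_cast hup'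
      refine this.trans (mul_le_mul_of_nonneg_right (pow_le_pow_left₀ (by positivity) ?_ _)
        (by positivity))
      linarith
    have b2 : Real.log D ≤ Real.log (((N + 1) * M) ^ v * (2 * G + 1) ^ Q : ℝ) := by
      rcases Nat.eq_zero_or_pos D with rfl | hD
      · rw [Nat.cast_zero, Real.log_zero]
        refine Real.log_nonneg (one_le_mul_of_one_le_of_one_le (one_le_pow₀ ?_) (one_le_pow₀ ?_))
        · nlinarith
        · linarith
      · exact Real.log_le_log (by exact_mod_cast hD) b1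
    rwa [Real.log_mul (by positivity) (by positivity), Real.log_pow, Real.log_pow,
      Real.log_mul (by positivity) (by positivity)] at b2
  have e3 : (N : ℝ) / 2 ^ L ≤ r := Nat.le_ceil _
  have e4 : b * v ≤ N / 2 ^ L / 2 := by
    have : (v : ℝ) ≤ 1 / (2 * b * 2 ^ L) * N := Nat.floor_le (by positivity)
    calc b * v ≤ b * (1 / (2 * b * 2 ^ L) * N) := by gcongr
      _ = _ := by field_simp
  have e5 : c < N / 2 ^ L / 2 * Real.log M := by
    rw [div_lt_iff₀ (by positivity)] at hlogM; linarith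
  have e6 := mul_le_mul_of_nonneg_left e2 hb.le
  have e7 := mul_le_mul_of_nonneg_right e3 hlogM0.le
  have e8 := mul_le_mul_of_nonneg_right e4 hlogM0.le
  rw [hc] at e5
  nlinarith

end Vale.Agent.P126
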